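import Vale.Agent.P141.R2.H152.Alg

/-!
# The algebra generated by the structured functions: products
-/

namespace Vale.Agent.P141.R2.H152

open MeasureTheory Set
open scoped ENNReal

namespace AlgMul

/-- the indicator of `[0,H]` -/
noncomputable def ic (H : ℝ) (y : ℝ) : ℂ := (Icc (0 : ℝ) H).indicator (fun _ => (1 : ℂ)) y

lemma measurable_ic (H : ℝ) : Measurable (ic H) := measurable_const.indicator measurableSet_Icc

lemma norm_ic_le (H y : ℝ) : ‖ic H y‖ ≤ 1 := by
  unfold ic
  by_cases h : y ∈ Icc (0 : ℝ) H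
  · rw [indicator_of_mem h]; simp
  · rw [indicator_of_notMem h]; simp

lemma measurableSet_cube (H : ℝ) : MeasurableSet (cube H) :=
  measurableSet_Icc.prod (measurableSet_Icc.prod measurableSet_Icc)

lemma volume_box (a b : ℝ) : (volume : Measure (ℝ × ℝ × ℝ)) (Icc a b ×ˢ (Icc a b ×ˢ Icc a b)) =
    ENNReal.ofReal (b - a) * (ENNReal.ofReal (b - a) * ENNReal.ofReal (b - a)) := by
  rw [Measure.volume_eq_prod, Measure.prod_prod, Measure.volume_eq_prod, Measure.prod_prod,
    Real.volume_Icc]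

lemma volume_cube_lt (H : ℝ) : (volume : Measure (ℝ × ℝ × ℝ)) (cube H) < ⊤ := by
  unfold cube
  rw [volume_box]
  finiteness

lemma ic_mul (H : ℝ) (m : ℝ × ℝ × ℝ) (z : ℂ) :
    z * ic H m.2.1 * ic H m.2.2 * ic H m.1 = (cube H).indicator (fun _ => z) m := by
  unfold ic
  by_cases h1 : m.1 ∈ Icc (0 : ℝ) H
  · by_cases h2 : m.2.1 ∈ Icc (0 : ℝ) H
    · by_cases h3 : m.2.2 ∈ Icc (0 : ℝ) H
      · rw [indicator_of_mem h1, indicator_of_mem h2, indicator_of_mem h3,
          indicator_of_mem (show m ∈ cube H from ⟨h1, h2, h3⟩)]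
        ring
      · rw [indicator_of_notMem h3, indicator_of_notMem
          (show m ∉ cube H from fun h => h3 h.2.2)]
        ring
    · rw [indicator_of_notMem h2, indicator_of_notMem
        (show m ∉ cube H from fun h => h2 h.2.1)]
      ring
  · rw [indicator_of_notMem h1, indicator_of_notMem (show m ∉ cube H from fun h => h1 h.1)]
    ring

section

variable {Ω' Ω : Type} [MeasurableSpace Ω'] [MeasurableSpace Ω]
  {G' : Fin 3 → Ω' × ℝ × ℝ × ℝ → ℂ} {G : Fin 3 → Ω × ℝ × ℝ × ℝ → ℂ}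

/-- the factors of the product -/
noncomputable def GPr (H : ℝ) (G' : Fin 3 → Ω' × ℝ × ℝ × ℝ → ℂ) (G : Fin 3 → Ω × ℝ × ℝ × ℝ → ℂ) :
    Fin 3 → (Ω' × Ω × (ℝ × ℝ × ℝ)) × ℝ × ℝ × ℝ → ℂ :=
  ![fun p => G' 0 (p.1.1, p.2) *
      G 0 (p.1.2.1, p.2.1 + p.1.2.2.1, p.2.2.1 + p.1.2.2.2.1, p.2.2.2 + p.1.2.2.2.2) *
      ic H (p.2.2.1 + p.1.2.2.2.1) * ic H (p.2.2.2 + p.1.2.2.2.2),
    fun p => G' 1 (p.1.1, p.2) *
      G 1 (p.1.2.1, p.2.1 + p.1.2.2.2.1, p.2.2.1 + p.1.2.2.1, p.2.2.2 + p.1.2.2.2.2) *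
      ic H (p.2.2.1 + p.1.2.2.1),
    fun p => G' 2 (p.1.1, p.2) *
      G 2 (p.1.2.1, p.2.1 + p.1.2.2.2.2, p.2.2.1 + p.1.2.2.1, p.2.2.2 + p.1.2.2.2.1)]

lemma measurable_GPr (H : ℝ) (hG' : ∀ i, Measurable (G' i)) (hG : ∀ i, Measurable (G i))
    (i : Fin 3) : Measurable (GPr H G' G i) := by
  have hi := measurable_ic H
  have h0' := hG' 0
  have h1' := hG' 1
  have h2' := hG' 2
  have h0 := hG 0
  have h1 := hG 1
  have h2 := hG 2
  fin_cases i <;> simp only [GPr, Fin.zero_eta, Fin.mk_one, Fin.reduceFinMk, Matrix.cons_val] <;>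
    fun_prop

omit [MeasurableSpace Ω'] [MeasurableSpace Ω] in
lemma norm_GPr_le (H : ℝ) (hG' : ∀ i p, ‖G' i p‖ ≤ 1) (hG : ∀ i p, ‖G i p‖ ≤ 1)
    (i : Fin 3) (p) : ‖GPr H G' G i p‖ ≤ 1 := by
  have hmul : ∀ {a b : ℂ}, ‖a‖ ≤ 1 → ‖b‖ ≤ 1 → ‖a * b‖ ≤ 1 := fun ha hb => by
    rw [norm_mul]
    exact mul_le_one₀ ha (norm_nonneg _) hb
  fin_cases i
  · exact hmul (hmul (hmul (hG' _ _) (hG _ _)) (norm_ic_le _ _)) (norm_ic_le _ _)
  · exact hmul (hmul (hG' _ _) (hG _ _)) (norm_ic_le _ _)
  · exact hmul (hG' _ _) (hG _ _)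

omit [MeasurableSpace Ω'] [MeasurableSpace Ω] in
lemma tri_GPr (H : ℝ) (ω' : Ω') (ω : Ω) (k : ℝ × ℝ × ℝ) (x : ℝ) (h : ℝ × ℝ × ℝ) :
    tri (GPr H G' G) (ω', ω, k) x h =
      tri G' ω' x h * (cube H).indicator (fun m => tri G ω x m) (h + k) := by
  have e : (cube H).indicator (fun m => tri G ω x m) (h + k) =
      tri G ω x (h + k) * ic H (h + k).2.1 * ic H (h + k).2.2 * ic H (h + k).1 := by
    rw [ic_mul]
    by_cases hm : h + k ∈ cube H
    · rw [indicator_of_mem hm, indicator_of_mem hm]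
    · rw [indicator_of_notMem hm, indicator_of_notMem hm]
  rw [e]
  simp only [tri, GPr, Matrix.cons_val, Prod.fst_add, Prod.snd_add, add_assoc]
  ring

lemma measurable_tri (hG : ∀ i, Measurable (G i)) (x : ℝ) :
    Measurable fun p : Ω × (ℝ × ℝ × ℝ) => tri G p.1 x p.2 := by
  have h0 := hG 0
  have h1 := hG 1
  have h2 := hG 2
  unfold tri
  fun_prop

omit [MeasurableSpace Ω] in
lemma norm_tri_le (hG : ∀ i p, ‖G i p‖ ≤ 1) (ω : Ω) (x : ℝ) (h : ℝ × ℝ × ℝ) :
    ‖tri G ω x h‖ ≤ 1 := by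
  have hmul : ∀ {a b : ℂ}, ‖a‖ ≤ 1 → ‖b‖ ≤ 1 → ‖a * b‖ ≤ 1 := fun ha hb => by
    rw [norm_mul]
    exact mul_le_one₀ ha (norm_nonneg _) hb
  exact hmul (hmul (hG _ _) (hG _ _)) (hG _ _)

/-- the shift integral -/
lemma shift_integral {H H' : ℝ} (f : ℝ × ℝ × ℝ → ℂ) {h : ℝ × ℝ × ℝ} (hh : h ∈ cube H') :
    ∫ k in Icc (-H') H ×ˢ (Icc (-H') H ×ˢ Icc (-H') H), (cube H).indicator f (h + k) =
      ∫ m in cube H, f m := by
  have hinv : (volume : Measure (ℝ × ℝ × ℝ)).IsAddLeftInvariant :=
    inferInstanceAs (((volume : Measure ℝ).prod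
      (volume : Measure (ℝ × ℝ))).IsAddLeftInvariant)
  rw [setIntegral_eq_integral_of_forall_compl_eq_zero]
  · rw [integral_add_left_eq_self (fun m => (cube H).indicator f m) h,
      integral_indicator (measurableSet_cube H)]
  · intro k hk
    refine indicator_of_notMem (fun hm => hk ?_) _
    obtain ⟨⟨a1, a2⟩, ⟨b1, b2⟩, c1, c2⟩ := hm
    obtain ⟨⟨a3, a4⟩, ⟨b3, b4⟩, c3, c4⟩ := hh
    simp only [Prod.fst_add, Prod.snd_add] at a1 a2 b1 b2 c1 c2
    exact ⟨⟨by linarith, by linarith⟩, ⟨by linarith, by linarith⟩, by linarith, by linarith⟩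

end

end AlgMul

open AlgMul

theorem Alg.mul {H H' M M' : ℝ} {D D' : ℝ → ℂ} (h0 : 0 < H') (hH : H' ≤ H) (hM : 0 ≤ M)
    (hM' : 0 ≤ M') (h' : Alg H' M' D') (h : Alg H M D) :
    Alg H' (8 * M' * M) (fun x => D' x * D x) := by
  obtain ⟨Ω', mΩ', μ', G', hμ', hG'm, hG'b, hD'⟩ := h'
  obtain ⟨Ω, mΩ, μ, G, hμ, hGm, hGb, hD⟩ := h
  have hH0 : 0 < H := h0.trans_le hH
  have : IsFiniteMeasure μ' := ⟨hμ'.trans_lt ENNReal.ofReal_lt_top⟩
  have : IsFiniteMeasure μ := ⟨hμ.trans_lt ENNReal.ofReal_lt_top⟩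
  set K : Set (ℝ × ℝ × ℝ) := Icc (-H') H ×ˢ (Icc (-H') H ×ˢ Icc (-H') H) with hK
  set cH : ℝ := (H ^ 3)⁻¹ with hcH
  have hcH0 : 0 < cH := by positivity
  set ν : Measure (ℝ × ℝ × ℝ) := ENNReal.ofReal cH • volume.restrict K with hν
  have hνu : ν univ ≤ ENNReal.ofReal 8 := by
    rw [hν, Measure.smul_apply, Measure.restrict_apply_univ, hK, volume_box, smul_eq_mul,
      ← ENNReal.ofReal_mul (by linarith), ← ENNReal.ofReal_mul (by linarith),
      ← ENNReal.ofReal_mul hcH0.le]
    refine ENNReal.ofReal_le_ofReal ?_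
    have h1 : H - -H' ≤ 2 * H := by linarith
    have h2 : 0 ≤ H - -H' := by linarith
    have h3 : (H - -H') * ((H - -H') * (H - -H')) ≤ (2 * H) * ((2 * H) * (2 * H)) := by gcongr
    calc cH * ((H - -H') * ((H - -H') * (H - -H'))) ≤ cH * ((2 * H) * ((2 * H) * (2 * H))) := by
          gcongr
      _ = 8 := by rw [hcH]; field_simp; norm_num
  have : IsFiniteMeasure ν := ⟨hνu.trans_lt ENNReal.ofReal_lt_top⟩
  have : IsFiniteMeasure (volume.restrict (cube H') : Measure (ℝ × ℝ × ℝ)) :=
    ⟨by rw [Measure.restrict_apply_univ]; exact volume_cube_lt H'⟩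
  refine ⟨Ω' × Ω × (ℝ × ℝ × ℝ), inferInstance, μ'.prod (μ.prod ν), GPr H G' G, ?_,
    measurable_GPr H hG'm hGm, norm_GPr_le H hG'b hGb, fun x => ?_⟩
  · rw [← univ_prod_univ, Measure.prod_prod, ← univ_prod_univ, Measure.prod_prod]
    calc μ' univ * (μ univ * ν univ) ≤
          ENNReal.ofReal M' * (ENNReal.ofReal M * ENNReal.ofReal 8) := by gcongr
      _ = ENNReal.ofReal (8 * M' * M) := by
          rw [← ENNReal.ofReal_mul hM, ← ENNReal.ofReal_mul hM']
          congr 1
          ring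
  · -- the identity
    set c' : ℂ := ((H' ^ 3 : ℝ) : ℂ)⁻¹ with hc'
    set c : ℂ := ((H ^ 3 : ℝ) : ℂ)⁻¹ with hc
    set F : Ω' × Ω × (ℝ × ℝ × ℝ) → ℂ :=
      fun q => c' * ∫ h in cube H', tri (GPr H G' G) q x h with hF
    have hmt : Measurable fun p : (Ω' × Ω × (ℝ × ℝ × ℝ)) × (ℝ × ℝ × ℝ) =>
        tri (GPr H G' G) p.1 x p.2 := measurable_tri (measurable_GPr H hG'm hGm) x
    have hFm : AEStronglyMeasurable F (μ'.prod (μ.prod ν)) := by
      refine (StronglyMeasurable.const_mul ?_ c').aestronglyMeasurable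
      exact (hmt.stronglyMeasurable).integral_prod_right'
    have hFb : ∀ q, ‖F q‖ ≤ ‖c'‖ * (volume.restrict (cube H')).real univ := by
      intro q
      rw [hF, norm_mul]
      refine mul_le_mul_of_nonneg_left ?_ (norm_nonneg _)
      refine (norm_integral_le_of_norm_le_const (C := 1)
        (Filter.Eventually.of_forall fun h => norm_tri_le (norm_GPr_le H hG'b hGb) q x h)).trans ?_
      rw [one_mul]
    have hFi : Integrable F (μ'.prod (μ.prod ν)) :=
      Integrable.of_bound hFm _ (Filter.Eventually.of_forall hFb)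
    change D' x * D x = ∫ q, F q ∂(μ'.prod (μ.prod ν))
    rw [hD' x, hD x, ← integral_prod_mul]
    rw [integral_prod _ hFi, integral_prod]
    swap
    · refine Integrable.mul_prod (f := fun ω' => c' * ∫ h in cube H', tri G' ω' x h)
        (g := fun ω => c * ∫ h in cube H, tri G ω x h) ?_ ?_
      · refine Integrable.of_bound (C := ‖c'‖ * (volume.restrict (cube H')).real univ) ?_
          (Filter.Eventually.of_forall fun ω' => ?_)
        · exact (StronglyMeasurable.const_mul
            ((measurable_tri hG'm x).stronglyMeasurable.integral_prod_right') c').aestronglyMeasurable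
        · rw [norm_mul]
          refine mul_le_mul_of_nonneg_left ?_ (norm_nonneg _)
          refine (norm_integral_le_of_norm_le_const (C := 1)
            (Filter.Eventually.of_forall fun h => norm_tri_le hG'b ω' x h)).trans ?_
          rw [one_mul]
      · have : IsFiniteMeasure (volume.restrict (cube H) : Measure (ℝ × ℝ × ℝ)) :=
          ⟨by rw [Measure.restrict_apply_univ]; exact volume_cube_lt H⟩
        refine Integrable.of_bound (C := ‖c‖ * (volume.restrict (cube H)).real univ) ?_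
          (Filter.Eventually.of_forall fun ω => ?_)
        · exact (StronglyMeasurable.const_mul
            ((measurable_tri hGm x).stronglyMeasurable.integral_prod_right') c).aestronglyMeasurable
        · rw [norm_mul]
          refine mul_le_mul_of_nonneg_left ?_ (norm_nonneg _)
          refine (norm_integral_le_of_norm_le_const (C := 1)
            (Filter.Eventually.of_forall fun h => norm_tri_le hGb ω x h)).trans ?_
          rw [one_mul]
    have hkey : ∀ ω' ω, ∫ k, F (ω', ω, k) ∂ν =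
        (c' * ∫ h in cube H', tri G' ω' x h) * (c * ∫ h in cube H, tri G ω x h) := by
      intro ω' ω
      set f : ℝ × ℝ × ℝ → ℂ := fun m => tri G ω x m with hf
      have hfm : Measurable f := (measurable_tri hGm x).comp (measurable_const.prodMk measurable_id)
      have hf'm : Measurable fun h : ℝ × ℝ × ℝ => tri G' ω' x h :=
        (measurable_tri hG'm x).comp (measurable_const.prodMk measurable_id)
      have e1 : ∀ k, F (ω', ω, k) =
          c' * ∫ h in cube H', tri G' ω' x h * (cube H).indicator f (h + k) := by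
        intro k
        simp only [hF]
        congr 1
        refine integral_congr_ae (Filter.Eventually.of_forall fun h => ?_)
        exact tri_GPr H ω' ω k x h
      simp_rw [e1]
      rw [integral_const_mul]
      have hint : Integrable (Function.uncurry fun (k : ℝ × ℝ × ℝ) (h : ℝ × ℝ × ℝ) =>
          tri G' ω' x h * (cube H).indicator f (h + k)) (ν.prod (volume.restrict (cube H'))) := by
        refine Integrable.of_bound (C := 1) ?_ (Filter.Eventually.of_forall fun p => ?_)
        · refine Measurable.aestronglyMeasurable ?_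
          exact (hf'm.comp measurable_snd).mul
            ((hfm.indicator (measurableSet_cube H)).comp (measurable_snd.add measurable_fst))
        · simp only [Function.uncurry]
          rw [norm_mul]
          refine mul_le_one₀ (norm_tri_le hG'b _ _ _) (norm_nonneg _) ?_
          refine (norm_indicator_le_norm_self _ _).trans (norm_tri_le hGb _ _ _)
      rw [integral_integral_swap hint]
      have e2 : ∀ h ∈ cube H', ∫ k, tri G' ω' x h * (cube H).indicator f (h + k) ∂ν =
          tri G' ω' x h * (c * ∫ m in cube H, f m) := by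
        intro h hh
        rw [integral_const_mul, hν, integral_smul_measure, hK, shift_integral f hh]
        congr 1
        rw [ENNReal.toReal_ofReal hcH0.le, hcH, hc]
        rw [Complex.real_smul]
        push_cast
        rfl
      rw [setIntegral_congr_fun (measurableSet_cube H') e2, integral_mul_const]
      ring
    refine integral_congr_ae (Filter.Eventually.of_forall fun ω' => ?_)
    simp only
    have hFi' : Integrable (fun q => F (ω', q)) (μ.prod ν) := by
      refine Integrable.of_bound ?_ _ (Filter.Eventually.of_forall fun q => hFb (ω', q))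
      refine (StronglyMeasurable.const_mul ?_ c').aestronglyMeasurable
      exact ((hmt.comp ((measurable_const.prodMk measurable_fst).prodMk
        measurable_snd)).stronglyMeasurable).integral_prod_right'
    rw [integral_prod _ hFi']
    refine integral_congr_ae (Filter.Eventually.of_forall fun ω => ?_)
    exact (hkey ω' ω).symm

end Vale.Agent.P141.R2.H152
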